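import Mathlib

/-!
# P137 / BDn-G7: from coordinate translations to all translations

Blueprint. For a finset `s` put `h_s = ∑ i ∈ s, EuclideanSpace.single i (h i)`. By `Finset.induction_on`: `∫⁻ x, ((g x - g (x + h_s)) + (g (x + h_s) - g x)) ≤ ∑ i ∈ s, W * ofReal |h i|`. Step: with `p = x + h_s`, `x + h_(insert i s) = p + single i (h i)` (`Finset.sum_insert`, `add_comm`, `add_assoc`), and
`(g x - g q) + (g q - g x) ≤ ((g x - g p) + (g p - g x)) + ((g p - g q) + (g q - g p))` (`tsub_le_tsub_add_tsub`); `lintegral_add_left` (measurability from `hg`), and the second integral equals the one without the shift by `lintegral_add_right_eq_self`. Finally `h_univ = h` (ext; `Finset.sum_apply`-type lemma,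
or `(EuclideanSpace.basisFun (Fin d) ℝ).sum_repr`), `|h i| ≤ ‖h‖` (`PiLp.norm_apply_le`), `Finset.sum_le_card_nsmul`. Compare the finished `Vale/Agent/Lib/P137/BD/DQGen.lean`.
-/

namespace P137

open MeasureTheory Metric Set
open scoped ENNReal

theorem dq_add {d : ℕ} (g : EuclideanSpace ℝ (Fin d) → ℝ≥0∞) (hg : Measurable g)
    (u w : EuclideanSpace ℝ (Fin d)) :
    ∫⁻ x, ((g x - g (x + (u + w))) + (g (x + (u + w)) - g x)) ≤
      (∫⁻ x, ((g x - g (x + u)) + (g (x + u) - g x))) +
        ∫⁻ x, ((g x - g (x + w)) + (g (x + w) - g x)) := by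
  have hpt : ∀ x, (g x - g (x + (u + w))) + (g (x + (u + w)) - g x) ≤
      ((g x - g (x + u)) + (g (x + u) - g x)) +
        ((g (x + u) - g (x + u + w)) + (g (x + u + w) - g (x + u))) := by
    intro x
    have e1 : x + (u + w) = x + u + w := by rw [add_assoc]
    rw [e1]
    have a1 : g x - g (x + u + w) ≤ (g x - g (x + u)) + (g (x + u) - g (x + u + w)) :=
      tsub_le_tsub_add_tsub
    have a2 : g (x + u + w) - g x ≤ (g (x + u + w) - g (x + u)) + (g (x + u) - g x) :=
      tsub_le_tsub_add_tsub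
    calc (g x - g (x + u + w)) + (g (x + u + w) - g x)
        ≤ ((g x - g (x + u)) + (g (x + u) - g (x + u + w))) +
          ((g (x + u + w) - g (x + u)) + (g (x + u) - g x)) := add_le_add a1 a2
      _ = _ := by ring
  have htr : ∫⁻ x, ((g (x + u) - g (x + u + w)) + (g (x + u + w) - g (x + u)))
      = ∫⁻ x, ((g x - g (x + w)) + (g (x + w) - g x)) :=
    lintegral_add_right_eq_self (fun y => (g y - g (y + w)) + (g (y + w) - g y)) u
  have hm1 : Measurable (fun x => (g x - g (x + u)) + (g (x + u) - g x)) := by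
    have hgu : Measurable (fun x => g (x + u)) := hg.comp (measurable_id.add_const u)
    exact (hg.sub hgu).add (hgu.sub hg)
  calc ∫⁻ x, ((g x - g (x + (u + w))) + (g (x + (u + w)) - g x))
      ≤ ∫⁻ x, (((g x - g (x + u)) + (g (x + u) - g x)) +
        ((g (x + u) - g (x + u + w)) + (g (x + u + w) - g (x + u)))) := lintegral_mono hpt
    _ = (∫⁻ x, ((g x - g (x + u)) + (g (x + u) - g x))) +
        ∫⁻ x, ((g (x + u) - g (x + u + w)) + (g (x + u + w) - g (x + u))) :=
        lintegral_add_left hm1 _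
    _ = _ := by rw [htr]

theorem dq_of_coord {d : ℕ} (g : EuclideanSpace ℝ (Fin d) → ℝ≥0∞) (hg : Measurable g) (W : ℝ≥0∞)
    (hc : ∀ (i : Fin d) (t : ℝ),
      ∫⁻ x, ((g x - g (x + EuclideanSpace.single i t)) +
        (g (x + EuclideanSpace.single i t) - g x)) ≤ W * ENNReal.ofReal |t|)
    (h : EuclideanSpace ℝ (Fin d)) :
    ∫⁻ x, ((g x - g (x + h)) + (g (x + h) - g x)) ≤ d * W * ENNReal.ofReal ‖h‖ := by
  classical
  have key : ∀ s : Finset (Fin d),
      ∫⁻ x, ((g x - g (x + ∑ i ∈ s, EuclideanSpace.single i (h i))) +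
        (g (x + ∑ i ∈ s, EuclideanSpace.single i (h i)) - g x)) ≤
      ∑ i ∈ s, W * ENNReal.ofReal |h i| := by
    intro s
    induction s using Finset.induction_on with
    | empty => simp
    | insert a s ha ih =>
      rw [Finset.sum_insert ha, Finset.sum_insert ha]
      refine (dq_add g hg _ _).trans ?_
      exact add_le_add (hc a (h a)) ih
  have hsum : ∑ i, EuclideanSpace.single i (h i) = h := by
    ext j
    simp [Finset.sum_apply]
  have h1 := key Finset.univ
  rw [hsum] at h1
  refine h1.trans ?_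
  have h2 : ∀ i ∈ (Finset.univ : Finset (Fin d)),
      W * ENNReal.ofReal |h i| ≤ W * ENNReal.ofReal ‖h‖ := by
    intro i _
    gcongr
    rw [← Real.norm_eq_abs]
    exact PiLp.norm_apply_le h i
  refine (Finset.sum_le_card_nsmul _ _ _ h2).trans ?_
  simp [mul_assoc]

end P137
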