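import Vale.Agent.Lib.P137.BDn.ReflN

/-!
# P137 / BDn-G2: the centred maximal function of a block-decreasing function is block-decreasing, every dimension

Blueprint. For a finset `s` of coordinates let `w s = WithLp.toLp 2 (fun i => if i ∈ s then x i else y i)`. By `Finset.induction_on`, `∫⁻ z in ball y r, f z ≤ ∫⁻ z in ball (w s) r, f z`: `w ∅ = y`; `w (insert i s)` differs from `w s` only in the coordinate `i`, where it is `x i` instead of `y i`,
so `ball_int_le_of_coord_n` applies (with `x := w (insert i s)`, `y := w s`). `w Finset.univ = x`. Then `Measure.addHaar_ball_center` and `iSup_mono` as in `maxFun_anti` (`Main.lean`). `maxFun_mono`: `iSup_mono`, `lintegral_mono`.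
-/

namespace P137

open MeasureTheory Metric Set
open scoped ENNReal

theorem maxFun_BD_n {d : ℕ} (f : EuclideanSpace ℝ (Fin d) → ℝ≥0∞) (hf : Measurable f)
    (hBD : ∀ x y : EuclideanSpace ℝ (Fin d), (∀ i, |x i| ≤ |y i|) → f y ≤ f x)
    (x y : EuclideanSpace ℝ (Fin d)) (hxy : ∀ i, |x i| ≤ |y i|) :
    maxFun f y ≤ maxFun f x := by
  classical
  have key : ∀ r : ℝ, ∫⁻ z in ball y r, f z ≤ ∫⁻ z in ball x r, f z := by
    intro r
    have hind : ∀ s : Finset (Fin d), ∫⁻ z in ball y r, f z ≤
        ∫⁻ z in ball (WithLp.toLp 2 (fun i => if i ∈ s then x i else y i) :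
          EuclideanSpace ℝ (Fin d)) r, f z := by
      intro s
      induction s using Finset.induction_on with
      | empty =>
        have h0 : (WithLp.toLp 2 (fun i => if i ∈ (∅ : Finset (Fin d)) then x i else y i) :
            EuclideanSpace ℝ (Fin d)) = y := by
          ext i
          simp
        rw [h0]
      | insert a s ha ih =>
        refine ih.trans ?_
        apply ball_int_le_of_coord_n f hf hBD _ _ a
        · intro j hj
          simp [Finset.mem_insert, hj]
        · simp [ha, hxy a]
    have h1 := hind Finset.univ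
    have h2 : (WithLp.toLp 2 (fun i => if i ∈ (Finset.univ : Finset (Fin d)) then x i else y i) :
        EuclideanSpace ℝ (Fin d)) = x := by
      ext i
      simp
    rw [h2] at h1
    exact h1
  unfold maxFun
  refine iSup_mono fun r => ?_
  rw [Measure.addHaar_ball_center volume y r.1, Measure.addHaar_ball_center volume x r.1]
  exact mul_le_mul_right (key r.1) _

theorem maxFun_mono {d : ℕ} (f g : EuclideanSpace ℝ (Fin d) → ℝ≥0∞) (hfg : ∀ x, f x ≤ g x)
    (x : EuclideanSpace ℝ (Fin d)) : maxFun f x ≤ maxFun g x := by
  unfold maxFun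
  refine iSup_mono fun r => ?_
  exact mul_le_mul_right (lintegral_mono fun z => hfg z) _

end P137
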