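import Vale.Agent.Lib.P137.BD.OneD

/-!
# P137 / BDn-G4: even unimodal functions on the line, translation differences against the central integral

Blueprint for `vol_shift_le_slab_1d`. Let `S = {s | τ < ψ s}`, `D = {s | ψ (s + t) ≤ τ ∧ τ < ψ s} ⊆ S`. If some `s₀ ∈ S` has `|t| / 2 ≤ |s₀|`, then every `s` with `|s| ≤ |t| / 2` lies in `S` (by `hψ`), so the right side is `volume (Icc (-(|t|/2)) (|t|/2)) = ofReal |t|` and
`vol_shift_le_1d` gives the claim. Otherwise every `s ∈ S` has `|s| ≤ |t| / 2`, so `D ⊆ S =` the set on the right.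
Blueprint for `unimodal_shift_le_slab`. As `unimodal_shift_le` in `BD/OneDUp.lean`: by `lintegral_sub_mul_eq` (`w = 1`) the first term is `∫⁻ τ in Ioi 0, volume {s | ψ (s + t) ≤ ofReal τ ∧ ofReal τ < ψ s}`; bound by `vol_shift_le_slab_1d`; by `lintegral_sub_mul_eq` with `g1 = ψ`, `g2 = 0`,
`w = indicator (Icc (-(|t|/2)) (|t|/2)) 1` the result is `∫⁻ s in Icc .., ψ s` (`abs_le`). The second term is the first one for `-t` after the translation `s ↦ s - t`.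
-/

namespace P137

open MeasureTheory Metric Set
open scoped ENNReal

theorem vol_shift_le_slab_1d (ψ : ℝ → ℝ≥0∞) (hψ : ∀ s s' : ℝ, |s| ≤ |s'| → ψ s' ≤ ψ s)
    (τ : ℝ≥0∞) (t : ℝ) :
    volume {s : ℝ | ψ (s + t) ≤ τ ∧ τ < ψ s} ≤ volume {s : ℝ | τ < ψ s ∧ |s| ≤ |t| / 2} := by
  by_cases h : ∃ s₀ : ℝ, τ < ψ s₀ ∧ |t| / 2 ≤ |s₀|
  · obtain ⟨s₀, h1, h2⟩ := h
    have hsub : Icc (-(|t| / 2)) (|t| / 2) ⊆ {s : ℝ | τ < ψ s ∧ |s| ≤ |t| / 2} := by
      intro s hs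
      have hs' : |s| ≤ |t| / 2 := abs_le.mpr hs
      exact ⟨lt_of_lt_of_le h1 (hψ s s₀ (hs'.trans h2)), hs'⟩
    have hvol : volume (Icc (-(|t| / 2)) (|t| / 2)) = ENNReal.ofReal |t| := by
      rw [Real.volume_Icc]
      congr 1
      ring
    calc volume {s : ℝ | ψ (s + t) ≤ τ ∧ τ < ψ s} ≤ ENNReal.ofReal |t| :=
          vol_shift_le_1d ψ hψ τ t
      _ = volume (Icc (-(|t| / 2)) (|t| / 2)) := hvol.symm
      _ ≤ _ := measure_mono hsub
  · push Not at h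
    refine measure_mono ?_
    intro s hs
    exact ⟨hs.2, (h s hs.2).le⟩

theorem unimodal_shift_one_le_slab (ψ : ℝ → ℝ≥0∞) (hψ : ∀ s s' : ℝ, |s| ≤ |s'| → ψ s' ≤ ψ s)
    (t : ℝ) :
    ∫⁻ s, (ψ s - ψ (s + t)) ≤ ∫⁻ s in Icc (-(|t| / 2)) (|t| / 2), ψ s := by
  have hm : Measurable ψ := unimodal_measurable ψ hψ
  have hm2 : Measurable (fun s => ψ (s + t)) := hm.comp (measurable_id.add_const t)
  have e1 := lintegral_sub_mul_eq (volume : Measure ℝ) ψ (fun s => ψ (s + t)) (fun _ => 1)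
    hm hm2 measurable_const
  simp only [mul_one] at e1
  have hw : Measurable ((Icc (-(|t| / 2)) (|t| / 2)).indicator (fun _ : ℝ => (1 : ℝ≥0∞))) :=
    measurable_const.indicator measurableSet_Icc
  have e2 := lintegral_sub_mul_eq (volume : Measure ℝ) ψ (fun _ => 0)
    ((Icc (-(|t| / 2)) (|t| / 2)).indicator (fun _ : ℝ => (1 : ℝ≥0∞))) hm measurable_const hw
  have e3 : ∫⁻ x, (ψ x - 0) * (Icc (-(|t| / 2)) (|t| / 2)).indicator (fun _ : ℝ => (1 : ℝ≥0∞)) x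
      = ∫⁻ s in Icc (-(|t| / 2)) (|t| / 2), ψ s := by
    rw [← lintegral_indicator measurableSet_Icc]
    refine lintegral_congr (fun x => ?_)
    by_cases hx : x ∈ Icc (-(|t| / 2)) (|t| / 2)
    · rw [indicator_of_mem hx, indicator_of_mem hx]
      simp
    · rw [indicator_of_notMem hx, indicator_of_notMem hx]
      simp
  rw [e1, ← e3, e2]
  refine lintegral_mono (fun τ => ?_)
  have a1 : ∫⁻ _ in {x | ψ (x + t) ≤ ENNReal.ofReal τ ∧ ENNReal.ofReal τ < ψ x}, (1 : ℝ≥0∞)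
      = volume {x | ψ (x + t) ≤ ENNReal.ofReal τ ∧ ENNReal.ofReal τ < ψ x} := by
    simp
  have a2 : ∫⁻ x in {x | (0 : ℝ≥0∞) ≤ ENNReal.ofReal τ ∧ ENNReal.ofReal τ < ψ x},
        (Icc (-(|t| / 2)) (|t| / 2)).indicator (fun _ : ℝ => (1 : ℝ≥0∞)) x
      = volume {s : ℝ | ENNReal.ofReal τ < ψ s ∧ |s| ≤ |t| / 2} := by
    rw [lintegral_indicator_const measurableSet_Icc, one_mul,
      Measure.restrict_apply measurableSet_Icc]
    congr 1
    ext s
    simp only [mem_inter_iff, mem_Icc, mem_ofPred_eq, abs_le]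
    constructor
    · rintro ⟨h1, _, h3⟩
      exact ⟨h3, h1⟩
    · rintro ⟨h1, h2⟩
      exact ⟨h2, bot_le, h1⟩
  rw [a1, a2]
  exact vol_shift_le_slab_1d ψ hψ (ENNReal.ofReal τ) t

theorem unimodal_shift_le_slab (ψ : ℝ → ℝ≥0∞) (hψ : ∀ s s' : ℝ, |s| ≤ |s'| → ψ s' ≤ ψ s)
    (t : ℝ) :
    ∫⁻ s, ((ψ s - ψ (s + t)) + (ψ (s + t) - ψ s)) ≤
      2 * ∫⁻ s in Icc (-(|t| / 2)) (|t| / 2), ψ s := by
  have hm : Measurable ψ := unimodal_measurable ψ hψ
  have hm2 : Measurable (fun s => ψ (s + t)) := hm.comp (measurable_id.add_const t)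
  have h3 : Measurable (fun s => ψ s - ψ (s + t)) := hm.sub hm2
  rw [lintegral_add_left h3]
  have a1 := unimodal_shift_one_le_slab ψ hψ t
  have a2 := unimodal_shift_one_le_slab ψ hψ (-t)
  rw [abs_neg] at a2
  have e : ∫⁻ s, (ψ (s + t) - ψ s) = ∫⁻ s, (ψ s - ψ (s + -t)) := by
    rw [← lintegral_add_right_eq_self (fun s : ℝ => ψ s - ψ (s + -t)) t]
    simp
  rw [e]
  refine (add_le_add a1 a2).trans (le_of_eq ?_)
  ring

end P137
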