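import Vale.Agent.Lib.P137.BDn.TransferN
import Vale.Agent.Lib.P137.BDn.OneDBulk

/-!
# P137 / BDn-G5: coordinate translation differences of a block-decreasing function against its slab integral

Blueprint. Apply `lintegral_insertNth i` to both sides (on the right to `indicator {x | |x i| ≤ |t| / 2} g`, `lintegral_indicator`). With `p s z = WithLp.toLp 2 (Fin.insertNth i s z)`: `p s z + EuclideanSpace.single i t = p (s + t) z` (ext `j`; `Fin.insertNth_apply_same`, and for `j ≠ i` write `j = i.succAbove k`,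
`Fin.insertNth_apply_succAbove`), `(p s z) i = s`. For fixed `z`, `ψ s = g (p s z)` satisfies the hypothesis of `unimodal_shift_le_slab` (by `hBD`). `lintegral_mono`, `lintegral_const_mul'`/`lintegral_const_mul`; `s ∈ Icc (-(|t|/2)) (|t|/2) ↔ |s| ≤ |t| / 2` (`abs_le`).
-/

namespace P137

open MeasureTheory Metric Set
open scoped ENNReal

theorem BD_shift_le_slab {n : ℕ} (g : EuclideanSpace ℝ (Fin (n + 1)) → ℝ≥0∞) (hg : Measurable g)
    (hBD : ∀ x y : EuclideanSpace ℝ (Fin (n + 1)), (∀ i, |x i| ≤ |y i|) → g y ≤ g x)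
    (i : Fin (n + 1)) (t : ℝ) :
    ∫⁻ x, ((g x - g (x + EuclideanSpace.single i t)) +
        (g (x + EuclideanSpace.single i t) - g x)) ≤
      2 * ∫⁻ x in {x : EuclideanSpace ℝ (Fin (n + 1)) | |x i| ≤ |t| / 2}, g x := by
  have hg2 : Measurable (fun x : EuclideanSpace ℝ (Fin (n + 1)) =>
      g (x + EuclideanSpace.single i t)) := hg.comp (measurable_id.add_const _)
  have hG : Measurable (fun x : EuclideanSpace ℝ (Fin (n + 1)) =>
      (g x - g (x + EuclideanSpace.single i t)) + (g (x + EuclideanSpace.single i t) - g x)) :=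
    (hg.sub hg2).add (hg2.sub hg)
  have hS : MeasurableSet {x : EuclideanSpace ℝ (Fin (n + 1)) | |x i| ≤ |t| / 2} :=
    measurableSet_le
      (continuous_abs.comp (EuclideanSpace.proj i : _ →L[ℝ] ℝ).continuous).measurable
      measurable_const
  rw [lintegral_insertNth i _ hG, ← lintegral_indicator hS,
    lintegral_insertNth i _ (hg.indicator hS)]
  have hadd : ∀ (s : ℝ) (z : Fin n → ℝ),
      (WithLp.toLp 2 (Fin.insertNth i s z : Fin (n + 1) → ℝ) : EuclideanSpace ℝ (Fin (n + 1)))
        + EuclideanSpace.single i t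
      = WithLp.toLp 2 (Fin.insertNth i (s + t) z : Fin (n + 1) → ℝ) := by
    intro s z
    ext j
    rcases Fin.eq_self_or_eq_succAbove i j with rfl | ⟨k, rfl⟩
    · simp
    · simp [Fin.succAbove_ne]
  rw [← lintegral_const_mul' _ _ (by norm_num)]
  refine lintegral_mono fun z => ?_
  simp only [hadd]
  have h1 := unimodal_shift_le_slab
    (fun s => g (WithLp.toLp 2 (Fin.insertNth i s z : Fin (n + 1) → ℝ))) (fun s s' hs => hBD _ _ ?_) t
  · refine h1.trans (le_of_eq ?_)
    congr 1
    rw [← lintegral_indicator measurableSet_Icc]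
    refine lintegral_congr fun s => ?_
    by_cases hs : |s| ≤ |t| / 2
    · have m1 : s ∈ Icc (-(|t| / 2)) (|t| / 2) := abs_le.1 hs
      have m2 : (WithLp.toLp 2 (Fin.insertNth i s z : Fin (n + 1) → ℝ) :
          EuclideanSpace ℝ (Fin (n + 1))) ∈
          {x : EuclideanSpace ℝ (Fin (n + 1)) | |x i| ≤ |t| / 2} := by
        show |(WithLp.toLp 2 (Fin.insertNth i s z : Fin (n + 1) → ℝ) :
          EuclideanSpace ℝ (Fin (n + 1))) i| ≤ |t| / 2
        simpa using hs
      rw [Set.indicator_of_mem m1, Set.indicator_of_mem m2]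
    · have m1 : s ∉ Icc (-(|t| / 2)) (|t| / 2) := fun h => hs (abs_le.2 h)
      have m2 : (WithLp.toLp 2 (Fin.insertNth i s z : Fin (n + 1) → ℝ) :
          EuclideanSpace ℝ (Fin (n + 1))) ∉
          {x : EuclideanSpace ℝ (Fin (n + 1)) | |x i| ≤ |t| / 2} := by
        intro h
        have h' : |(WithLp.toLp 2 (Fin.insertNth i s z : Fin (n + 1) → ℝ) :
          EuclideanSpace ℝ (Fin (n + 1))) i| ≤ |t| / 2 := h
        exact hs (by simpa using h')
      rw [Set.indicator_of_notMem m1, Set.indicator_of_notMem m2]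
  · intro j
    rcases Fin.eq_self_or_eq_succAbove i j with rfl | ⟨k, rfl⟩
    · simpa using hs
    · simp

end P137
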