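import Vale.Agent.Lib.P137.BDn.SlabVol
import Vale.Agent.Lib.P137.Layer
import Vale.Agent.Lib.P137.Level
import Vale.Agent.Lib.P137.BallInv

/-!
# P137 / BDn-G6b: slab integrals of a radially nonincreasing function

Blueprint for `slab_level_le`. Let `S = {x | τ < G ‖x‖}`, `ω = volume (ball 0 1)`; use `superlevel_cases`. `S = ∅`: trivial. `S = univ`: the right side is `∞`, because `∫⁻ x, (ofReal ‖x‖)⁻¹ ≥ volume (ball 0 R) / ofReal R = ofReal (R ^ (d - 1)) * ω` for every `R > 0` (`ballInv_ge`,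
`Measure.addHaar_ball_of_pos`), unbounded as `d ≥ 2`, and the constant in front is positive (`s > 0`). Otherwise `ball 0 R ⊆ S ⊆ closedBall 0 R`; if `R = 0` the left side is `≤ volume {0} = 0`; if `R > 0`: `vol_ball_slab_le` gives
`volume (S ∩ slab) ≤ ofReal (2 * s) * ofReal ((2 * R) ^ (d - 1)) = 2 ^ d * ofReal s * ofReal (R ^ (d - 1))`, and `ofReal (R ^ (d - 1)) * ω = volume (ball 0 R) / ofReal R ≤ ∫⁻ x in S, (ofReal ‖x‖)⁻¹` (`ballInv_ge`, `lintegral_mono_set`); `ω ≠ 0, ∞`.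
Blueprint for `slab_radial_le`. `lintegral_sub_mul_eq` with `g1 x = G ‖x‖`, `g2 = 0`, once with `w = indicator slab 1` and once with `w x = (ofReal ‖x‖)⁻¹`, as in `Vale/Agent/Lib/P137/VarUpper.lean`.
-/

namespace P137

open MeasureTheory Metric Set
open scoped ENNReal

theorem slab_level_le {d : ℕ} (hd : 2 ≤ d) (G : ℝ → ℝ≥0∞) (hG : Antitone G) (τ : ℝ≥0∞)
    (i : Fin d) (s : ℝ) (hs : 0 < s) :
    volume ({x : EuclideanSpace ℝ (Fin d) | τ < G ‖x‖} ∩ {x | |x i| ≤ s}) ≤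
      2 ^ d * (volume (ball (0 : EuclideanSpace ℝ (Fin d)) 1))⁻¹ * ENNReal.ofReal s *
        ∫⁻ x in {x : EuclideanSpace ℝ (Fin d) | τ < G ‖x‖}, (ENNReal.ofReal ‖x‖)⁻¹ := by
  have hne : Nonempty (Fin d) := ⟨⟨0, by omega⟩⟩
  have hω0 : volume (ball (0 : EuclideanSpace ℝ (Fin d)) 1) ≠ 0 :=
    (measure_ball_pos volume _ one_pos).ne'
  have hωt : volume (ball (0 : EuclideanSpace ℝ (Fin d)) 1) ≠ ⊤ := measure_ball_lt_top.ne
  have hkey : ∀ R : ℝ, 0 < R →
      ENNReal.ofReal (R ^ (d - 1)) * volume (ball (0 : EuclideanSpace ℝ (Fin d)) 1) ≤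
      ∫⁻ x in ball (0 : EuclideanSpace ℝ (Fin d)) R, (ENNReal.ofReal ‖x‖)⁻¹ := by
    intro R hR
    refine le_trans (le_of_eq ?_) (ballInv_ge R hR)
    rw [Measure.addHaar_ball_of_pos volume _ hR, finrank_euclideanSpace_fin]
    have e1 : ENNReal.ofReal (R ^ d) * volume (ball (0 : EuclideanSpace ℝ (Fin d)) 1)
        / ENNReal.ofReal R
        = ENNReal.ofReal (R ^ d) / ENNReal.ofReal R
          * volume (ball (0 : EuclideanSpace ℝ (Fin d)) 1) := by
      simp only [div_eq_mul_inv]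
      ring
    rw [e1, ← ENNReal.ofReal_div_of_pos hR]
    congr 2
    rw [eq_div_iff hR.ne', ← pow_succ]
    congr 1
    omega
  rcases superlevel_cases (d := d) G hG τ with hS | hS | ⟨R, hR0, hsub, hsup⟩
  · rw [hS, empty_inter, measure_empty]
    exact zero_le
  · have hJ : ∀ n : ℕ, (n : ℝ≥0∞) * volume (ball (0 : EuclideanSpace ℝ (Fin d)) 1) ≤
        ∫⁻ x in {x : EuclideanSpace ℝ (Fin d) | τ < G ‖x‖}, (ENNReal.ofReal ‖x‖)⁻¹ := by
      intro n
      rcases Nat.eq_zero_or_pos n with hn | hn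
      · rw [hn]
        simp
      · have hn1 : (1 : ℝ) ≤ n := by exact_mod_cast hn
        have h1 := hkey n (by linarith)
        have h2 : (n : ℝ) ≤ (n : ℝ) ^ (d - 1) := by
          calc (n : ℝ) = (n : ℝ) ^ 1 := (pow_one _).symm
            _ ≤ (n : ℝ) ^ (d - 1) := pow_le_pow_right₀ hn1 (by omega)
        have h3 : (n : ℝ≥0∞) ≤ ENNReal.ofReal ((n : ℝ) ^ (d - 1)) := by
          rw [← ENNReal.ofReal_natCast]
          exact ENNReal.ofReal_le_ofReal h2
        calc (n : ℝ≥0∞) * volume (ball (0 : EuclideanSpace ℝ (Fin d)) 1)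
            ≤ ENNReal.ofReal ((n : ℝ) ^ (d - 1))
              * volume (ball (0 : EuclideanSpace ℝ (Fin d)) 1) := mul_le_mul_left h3 _
          _ ≤ ∫⁻ x in ball (0 : EuclideanSpace ℝ (Fin d)) n, (ENNReal.ofReal ‖x‖)⁻¹ := h1
          _ ≤ _ := lintegral_mono_set (by rw [hS]; exact subset_univ _)
    have hJt : ∫⁻ x in {x : EuclideanSpace ℝ (Fin d) | τ < G ‖x‖}, (ENNReal.ofReal ‖x‖)⁻¹ = ⊤ := by
      by_contra hcon
      have hdiv : (∫⁻ x in {x : EuclideanSpace ℝ (Fin d) | τ < G ‖x‖}, (ENNReal.ofReal ‖x‖)⁻¹)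
          / volume (ball (0 : EuclideanSpace ℝ (Fin d)) 1) ≠ ⊤ :=
        ENNReal.div_ne_top hcon hω0
      obtain ⟨n, hn⟩ := ENNReal.exists_nat_gt hdiv
      have := (ENNReal.le_div_iff_mul_le (Or.inl hω0) (Or.inl hωt)).2 (hJ n)
      exact absurd hn (not_lt.mpr this)
    rw [hJt, ENNReal.mul_top]
    · exact le_top
    · have a1 : (2 : ℝ≥0∞) ^ d ≠ 0 := by positivity
      have a2 : (volume (ball (0 : EuclideanSpace ℝ (Fin d)) 1))⁻¹ ≠ 0 :=
        ENNReal.inv_ne_zero.mpr hωt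
      have a3 : ENNReal.ofReal s ≠ 0 := (ENNReal.ofReal_pos.mpr hs).ne'
      exact mul_ne_zero (mul_ne_zero a1 a2) a3
  · rcases hR0.eq_or_lt with hR | hR
    · have hD : {x : EuclideanSpace ℝ (Fin d) | τ < G ‖x‖} ∩ {x | |x i| ≤ s} ⊆ {0} := by
        intro x hx
        have h1 : x ∈ closedBall (0 : EuclideanSpace ℝ (Fin d)) R := hsup hx.1
        rw [← hR] at h1
        simpa using h1
      have h0 : volume ({0} : Set (EuclideanSpace ℝ (Fin d))) = 0 := measure_singleton _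
      rw [measure_mono_null hD h0]
      exact zero_le
    · have e2 : ENNReal.ofReal (2 * s) * ENNReal.ofReal ((2 * R) ^ (d - 1))
          = 2 ^ d * ENNReal.ofReal s * ENNReal.ofReal (R ^ (d - 1)) := by
        rw [mul_pow, ENNReal.ofReal_mul (by norm_num : (0 : ℝ) ≤ 2),
          ENNReal.ofReal_mul (by positivity : (0 : ℝ) ≤ 2 ^ (d - 1)),
          ENNReal.ofReal_pow (by norm_num : (0 : ℝ) ≤ 2), ENNReal.ofReal_ofNat]
        have e3 : (2 : ℝ≥0∞) ^ d = 2 * 2 ^ (d - 1) := by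
          rw [← pow_succ']
          congr 1
          omega
        rw [e3]
        ring
      have e4 : 2 ^ d * ENNReal.ofReal s * ENNReal.ofReal (R ^ (d - 1))
          = 2 ^ d * (volume (ball (0 : EuclideanSpace ℝ (Fin d)) 1))⁻¹ * ENNReal.ofReal s *
            (ENNReal.ofReal (R ^ (d - 1)) * volume (ball (0 : EuclideanSpace ℝ (Fin d)) 1)) := by
        have e5 : (volume (ball (0 : EuclideanSpace ℝ (Fin d)) 1))⁻¹
            * volume (ball (0 : EuclideanSpace ℝ (Fin d)) 1) = 1 :=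
          ENNReal.inv_mul_cancel hω0 hωt
        calc 2 ^ d * ENNReal.ofReal s * ENNReal.ofReal (R ^ (d - 1))
            = 2 ^ d * ENNReal.ofReal s * ENNReal.ofReal (R ^ (d - 1)) * 1 := (mul_one _).symm
          _ = 2 ^ d * ENNReal.ofReal s * ENNReal.ofReal (R ^ (d - 1)) *
              ((volume (ball (0 : EuclideanSpace ℝ (Fin d)) 1))⁻¹
                * volume (ball (0 : EuclideanSpace ℝ (Fin d)) 1)) := by rw [e5]
          _ = _ := by ring
      calc volume ({x : EuclideanSpace ℝ (Fin d) | τ < G ‖x‖} ∩ {x | |x i| ≤ s})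
          ≤ volume (closedBall (0 : EuclideanSpace ℝ (Fin d)) R ∩ {x | |x i| ≤ s}) :=
            measure_mono (inter_subset_inter_left _ hsup)
        _ ≤ ENNReal.ofReal (2 * s) * ENNReal.ofReal ((2 * R) ^ (d - 1)) :=
            vol_ball_slab_le i R s hR.le hs.le
        _ = 2 ^ d * (volume (ball (0 : EuclideanSpace ℝ (Fin d)) 1))⁻¹ * ENNReal.ofReal s *
            (ENNReal.ofReal (R ^ (d - 1)) * volume (ball (0 : EuclideanSpace ℝ (Fin d)) 1)) := by
            rw [e2, e4]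
        _ ≤ 2 ^ d * (volume (ball (0 : EuclideanSpace ℝ (Fin d)) 1))⁻¹ * ENNReal.ofReal s *
            ∫⁻ x in ball (0 : EuclideanSpace ℝ (Fin d)) R, (ENNReal.ofReal ‖x‖)⁻¹ :=
            mul_le_mul_right (hkey R hR) _
        _ ≤ _ := mul_le_mul_right (lintegral_mono_set hsub) _

theorem slab_radial_le {d : ℕ} (hd : 2 ≤ d) (G : ℝ → ℝ≥0∞) (hG : Antitone G)
    (i : Fin d) (s : ℝ) (hs : 0 < s) :
    ∫⁻ x in {x : EuclideanSpace ℝ (Fin d) | |x i| ≤ s}, G ‖x‖ ≤
      2 ^ d * (volume (ball (0 : EuclideanSpace ℝ (Fin d)) 1))⁻¹ * ENNReal.ofReal s *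
        ∫⁻ x : EuclideanSpace ℝ (Fin d), G ‖x‖ / ENNReal.ofReal ‖x‖ := by
  have hGm : Measurable G := hG.measurable
  have h1 : Measurable (fun x : EuclideanSpace ℝ (Fin d) => G ‖x‖) :=
    hGm.comp measurable_norm
  have hw : Measurable (fun x : EuclideanSpace ℝ (Fin d) => (ENNReal.ofReal ‖x‖)⁻¹) :=
    (ENNReal.measurable_ofReal.comp measurable_norm).inv
  have hslab : MeasurableSet {x : EuclideanSpace ℝ (Fin d) | |x i| ≤ s} := by
    have hcont : Continuous (fun x : EuclideanSpace ℝ (Fin d) => |x i|) :=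
      continuous_abs.comp (EuclideanSpace.proj i).continuous
    exact (isClosed_le hcont continuous_const).measurableSet
  have hws : Measurable (fun x : EuclideanSpace ℝ (Fin d) =>
      ({x : EuclideanSpace ℝ (Fin d) | |x i| ≤ s}).indicator (fun _ => (1 : ℝ≥0∞)) x) :=
    measurable_const.indicator hslab
  have hball : volume (ball (0 : EuclideanSpace ℝ (Fin d)) 1) ≠ 0 :=
    (measure_ball_pos volume _ one_pos).ne'
  have hc : 2 ^ d * (volume (ball (0 : EuclideanSpace ℝ (Fin d)) 1))⁻¹ * ENNReal.ofReal s ≠ ∞ :=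
    ENNReal.mul_ne_top (ENNReal.mul_ne_top (ENNReal.pow_ne_top (by norm_num))
      (ENNReal.inv_ne_top.mpr hball)) ENNReal.ofReal_ne_top
  have e1 := lintegral_sub_mul_eq (volume : Measure (EuclideanSpace ℝ (Fin d)))
    (fun x => G ‖x‖) (fun _ => 0)
    (fun x => ({x : EuclideanSpace ℝ (Fin d) | |x i| ≤ s}).indicator (fun _ => (1 : ℝ≥0∞)) x)
    h1 measurable_const hws
  have e2 := lintegral_sub_mul_eq (volume : Measure (EuclideanSpace ℝ (Fin d)))
    (fun x => G ‖x‖) (fun _ => 0) (fun x => (ENNReal.ofReal ‖x‖)⁻¹) h1 measurable_const hw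
  simp only [tsub_zero, zero_le, true_and] at e1 e2
  have e3 : ∫⁻ x : EuclideanSpace ℝ (Fin d), G ‖x‖ / ENNReal.ofReal ‖x‖
      = ∫⁻ x : EuclideanSpace ℝ (Fin d), G ‖x‖ * (ENNReal.ofReal ‖x‖)⁻¹ := by
    simp only [div_eq_mul_inv]
  have e0 : ∫⁻ x in {x : EuclideanSpace ℝ (Fin d) | |x i| ≤ s}, G ‖x‖
      = ∫⁻ x : EuclideanSpace ℝ (Fin d), G ‖x‖ *
        ({x : EuclideanSpace ℝ (Fin d) | |x i| ≤ s}).indicator (fun _ => (1 : ℝ≥0∞)) x := by
    rw [← lintegral_indicator hslab]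
    refine lintegral_congr (fun x => ?_)
    by_cases hx : x ∈ {x : EuclideanSpace ℝ (Fin d) | |x i| ≤ s}
    · rw [indicator_of_mem hx, indicator_of_mem hx, mul_one]
    · rw [indicator_of_notMem hx, indicator_of_notMem hx, mul_zero]
  rw [e0, e1, e3, e2, ← lintegral_const_mul' _ _ hc]
  refine lintegral_mono (fun t => ?_)
  have h5 := slab_level_le hd G hG (ENNReal.ofReal t) i s hs
  have e4 : ∫⁻ x in {x : EuclideanSpace ℝ (Fin d) | ENNReal.ofReal t < G ‖x‖},
      ({x : EuclideanSpace ℝ (Fin d) | |x i| ≤ s}).indicator (fun _ => (1 : ℝ≥0∞)) x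
      = volume ({x : EuclideanSpace ℝ (Fin d) | ENNReal.ofReal t < G ‖x‖} ∩ {x | |x i| ≤ s}) := by
    rw [lintegral_indicator_const hslab, one_mul, Measure.restrict_apply hslab, inter_comm]
  rw [e4]
  exact h5

end P137
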