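import Vale.Agent.Lib.P137.Scale

/-!
# P137 / BDn-G9: scaling of the weighted integral

Blueprint. `lintegral_comp_smul_pos` with `g x = F (a * ‖x‖) / ofReal ‖x‖` (measurable: `hF.measurable`) and `R = b / a`: `g (R • z) = F (b * ‖z‖) / ofReal (R * ‖z‖) = (ofReal R)⁻¹ * (F (b * ‖z‖) / ofReal ‖z‖)` (`norm_smul`, `a * (b / a * ‖z‖) = b * ‖z‖`), so
`(ofReal R)⁻¹ * ∫⁻ F (b ‖z‖) / ofReal ‖z‖ = (ofReal (R ^ d))⁻¹ * ∫⁻ g`; multiply by `ofReal (R ^ d)` and use `R ^ d = R ^ (d - 1) * R`. Compare `Vale/Agent/Lib/P137/Half.lean`.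
-/

namespace P137

open MeasureTheory Metric Set
open scoped ENNReal

theorem weighted_scale {d : ℕ} (hd : 1 ≤ d) (F : ℝ → ℝ≥0∞) (hF : Antitone F) (a b : ℝ)
    (ha : 0 < a) (hb : 0 < b) :
    ∫⁻ x : EuclideanSpace ℝ (Fin d), F (a * ‖x‖) / ENNReal.ofReal ‖x‖ =
      ENNReal.ofReal ((b / a) ^ (d - 1)) *
        ∫⁻ x : EuclideanSpace ℝ (Fin d), F (b * ‖x‖) / ENNReal.ofReal ‖x‖ := by
  have hFm : Measurable F := hF.measurable
  have hR : 0 < b / a := div_pos hb ha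
  set R : ℝ := b / a with hRdef
  have hg : Measurable (fun x : EuclideanSpace ℝ (Fin d) => F (a * ‖x‖) / ENNReal.ofReal ‖x‖) := by
    refine Measurable.div (hFm.comp (measurable_norm.const_mul a)) ?_
    exact ENNReal.measurable_ofReal.comp measurable_norm
  have h1 := lintegral_comp_smul_pos
    (fun x : EuclideanSpace ℝ (Fin d) => F (a * ‖x‖) / ENNReal.ofReal ‖x‖) hg R hR
  have hR0 : ENNReal.ofReal R ≠ 0 := by
    simpa using hR
  have hRt : ENNReal.ofReal R ≠ ⊤ := ENNReal.ofReal_ne_top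
  have h2 : ∀ z : EuclideanSpace ℝ (Fin d),
      F (a * ‖R • z‖) / ENNReal.ofReal ‖R • z‖ =
        (ENNReal.ofReal R)⁻¹ * (F (b * ‖z‖) / ENNReal.ofReal ‖z‖) := by
    intro z
    have e1 : ‖R • z‖ = R * ‖z‖ := by
      rw [norm_smul, Real.norm_eq_abs, abs_of_pos hR]
    rw [e1]
    have e2 : a * (R * ‖z‖) = b * ‖z‖ := by
      rw [hRdef]; field_simp
    rw [e2, ENNReal.ofReal_mul hR.le]
    rw [div_eq_mul_inv, div_eq_mul_inv,
      ENNReal.mul_inv (Or.inl hR0) (Or.inl hRt)]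
    ring
  simp only [h2] at h1
  rw [lintegral_const_mul' _ _ (ENNReal.inv_ne_top.2 hR0)] at h1
  have hRd0 : ENNReal.ofReal (R ^ d) ≠ 0 := by
    simpa using pow_pos hR d
  have hRdt : ENNReal.ofReal (R ^ d) ≠ ⊤ := ENNReal.ofReal_ne_top
  have h3 : ∫⁻ x : EuclideanSpace ℝ (Fin d), F (a * ‖x‖) / ENNReal.ofReal ‖x‖ =
      ENNReal.ofReal (R ^ d) * ((ENNReal.ofReal (R ^ d))⁻¹ *
        ∫⁻ x : EuclideanSpace ℝ (Fin d), F (a * ‖x‖) / ENNReal.ofReal ‖x‖) := by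
    rw [← mul_assoc, ENNReal.mul_inv_cancel hRd0 hRdt, one_mul]
  rw [h3, ← h1, ← mul_assoc]
  have e5 : ENNReal.ofReal (R ^ d) * (ENNReal.ofReal R)⁻¹ = ENNReal.ofReal (R ^ (d - 1)) := by
    obtain ⟨k, rfl⟩ : ∃ k, d = k + 1 := ⟨d - 1, by omega⟩
    rw [pow_succ, ENNReal.ofReal_mul (pow_nonneg hR.le k), mul_assoc,
      ENNReal.mul_inv_cancel hR0 hRt, mul_one]
    simp
  rw [e5]

end P137
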