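import Vale.Agent.Lib.P137.Main
import Vale.Agent.Lib.P137.Profile
import Vale.Agent.Lib.P137.HardyLimit
import Vale.Agent.Lib.P137.DQ
import Vale.Agent.Lib.P137.LocInt
import Vale.Agent.Lib.P137.BD.MeasMax
import Vale.Agent.Lib.P137.BDn.MaxBDn
import Vale.Agent.Lib.P137.BDn.ShiftN
import Vale.Agent.Lib.P137.BDn.SlabRadial
import Vale.Agent.Lib.P137.BDn.DQCoord
import Vale.Agent.Lib.P137.BDn.WScale

/-!
# P137 / BDn: block-decreasing input between two dilates of a radial profile, every dimension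
-/

namespace P137

open MeasureTheory Metric Set
open scoped ENNReal NNReal

theorem quasi_radial_weighted {d : ℕ} (hd : 2 ≤ d) (f : EuclideanSpace ℝ (Fin d) → ℝ≥0∞)
    (hf : Measurable f) (hint : ∫⁻ x, f x ≠ ∞) (F : ℝ → ℝ≥0∞) (hF : Antitone F) (a b : ℝ)
    (ha : 0 < a) (hb : 0 < b) (hlo : ∀ x, F (b * ‖x‖) ≤ f x) (V : ℝ≥0)
    (hV : ∀ φ : EuclideanSpace ℝ (Fin d) → EuclideanSpace ℝ (Fin d), ContDiff ℝ 1 φ →
      HasCompactSupport φ → (∀ x, ‖φ x‖ ≤ 1) →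
      ∫ x, (f x).toReal * ∑ i : Fin d, (fderiv ℝ φ x (EuclideanSpace.single i 1)) i ≤ V) :
    ∫⁻ x : EuclideanSpace ℝ (Fin d), F (a * ‖x‖) / ENNReal.ofReal ‖x‖ ≤
      ENNReal.ofReal ((b / a) ^ (d - 1)) * V := by
  rw [weighted_scale (by omega) F hF a b ha hb]
  refine mul_le_mul_right ?_ _
  refine le_trans (lintegral_mono fun x => ?_) (weighted_le_of_testVar hd f hf hint V hV)
  exact ENNReal.div_le_div_right (hlo x) _

theorem quasi_radial_dq {d : ℕ} (hd : 2 ≤ d) (f : EuclideanSpace ℝ (Fin d) → ℝ≥0∞)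
    (hf : Measurable f)
    (hBD : ∀ x y : EuclideanSpace ℝ (Fin d), (∀ i, |x i| ≤ |y i|) → f y ≤ f x)
    (F : ℝ → ℝ≥0∞) (hF : Antitone F) (a : ℝ) (ha : 0 < a) (hhi : ∀ x, f x ≤ F (a * ‖x‖))
    (K : ℝ≥0∞)
    (hK : ∫⁻ x : EuclideanSpace ℝ (Fin d), F (a * ‖x‖) / ENNReal.ofReal ‖x‖ ≤ K) :
    (∫⁻ x, maxFun f x / ENNReal.ofReal ‖x‖ ≤ (2 ^ (d - 1) + d * 3 ^ d) * K) ∧
    ∀ h : EuclideanSpace ℝ (Fin d),
      ∫⁻ x, ((maxFun f x - maxFun f (x + h)) + (maxFun f (x + h) - maxFun f x)) ≤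
        d * (2 ^ d * (volume (ball (0 : EuclideanSpace ℝ (Fin d)) 1))⁻¹ *
          ((2 ^ (d - 1) + d * 3 ^ d) * K)) * ENNReal.ofReal ‖h‖ := by
  have hd1 : 1 ≤ d := by omega
  have hFa : Antitone (fun r : ℝ => F (a * r)) := fun r s hrs =>
    hF (mul_le_mul_of_nonneg_left hrs ha.le)
  obtain ⟨G, hG, hGe⟩ := exists_profile hd1
    (maxFun (fun z : EuclideanSpace ℝ (Fin d) => F (a * ‖z‖)))
    (fun x y hxy => maxFun_anti (fun r : ℝ => F (a * r)) hFa x y hxy)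
  have h2 := weighted_le hd1 (fun r : ℝ => F (a * r)) hFa
  have hle : ∀ x, maxFun f x ≤ G ‖x‖ := fun x => by
    rw [← hGe]; exact maxFun_mono f _ hhi x
  have hGw : ∫⁻ x : EuclideanSpace ℝ (Fin d), G ‖x‖ / ENNReal.ofReal ‖x‖ ≤
      (2 ^ (d - 1) + d * 3 ^ d) * K := by
    simp only [hGe] at h2
    exact le_trans h2 (mul_le_mul_right hK _)
  refine ⟨le_trans (lintegral_mono fun x => ENNReal.div_le_div_right (hle x) _) hGw, ?_⟩
  refine dq_of_coord (maxFun f) (measurable_maxFun f hf) _ ?_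
  intro i t
  rcases eq_or_ne t 0 with rfl | ht
  · have h0 : (EuclideanSpace.single i (0 : ℝ) : EuclideanSpace ℝ (Fin d)) = 0 := by
      ext j; simp
    simp [h0]
  obtain ⟨n, rfl⟩ : ∃ n, d = n + 1 := ⟨d - 1, by omega⟩
  have hs : 0 < |t| / 2 := by positivity
  have h1 := BD_shift_le_slab (maxFun f) (measurable_maxFun f hf) (maxFun_BD_n f hf hBD) i t
  have h3 := slab_radial_le hd G hG i (|t| / 2) hs
  have h4 : ∫⁻ x in {x : EuclideanSpace ℝ (Fin (n + 1)) | |x i| ≤ |t| / 2}, maxFun f x ≤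
      ∫⁻ x in {x : EuclideanSpace ℝ (Fin (n + 1)) | |x i| ≤ |t| / 2}, G ‖x‖ :=
    lintegral_mono fun x => hle x
  have h5 : (2 : ℝ≥0∞) * ENNReal.ofReal (|t| / 2) = ENNReal.ofReal |t| := by
    rw [← ENNReal.ofReal_ofNat 2, ← ENNReal.ofReal_mul (by norm_num)]
    congr 1; ring
  calc _ ≤ 2 * ∫⁻ x in {x : EuclideanSpace ℝ (Fin (n + 1)) | |x i| ≤ |t| / 2}, maxFun f x := h1
    _ ≤ 2 * (2 ^ (n + 1) * (volume (ball (0 : EuclideanSpace ℝ (Fin (n + 1))) 1))⁻¹ *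
          ENNReal.ofReal (|t| / 2) * ((2 ^ (n + 1 - 1) + (n + 1 : ℕ) * 3 ^ (n + 1)) * K)) :=
        mul_le_mul_right (le_trans h4 (le_trans h3 (mul_le_mul_right hGw _))) _
    _ = 2 ^ (n + 1) * (volume (ball (0 : EuclideanSpace ℝ (Fin (n + 1))) 1))⁻¹ *
          ((2 ^ (n + 1 - 1) + (n + 1 : ℕ) * 3 ^ (n + 1)) * K) *
            ((2 : ℝ≥0∞) * ENNReal.ofReal (|t| / 2)) := by ring
    _ = _ := by rw [h5]

theorem quasi_radial_bv {d : ℕ} (hd : 2 ≤ d) (a b : ℝ) (ha : 0 < a) (hb : 0 < b) :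
    ∃ C : ℝ≥0, ∀ (f : EuclideanSpace ℝ (Fin d) → ℝ≥0∞), Measurable f →
      (∀ x y : EuclideanSpace ℝ (Fin d), (∀ i, |x i| ≤ |y i|) → f y ≤ f x) →
      ∫⁻ x, f x ≠ ∞ → ∀ (F : ℝ → ℝ≥0∞), Antitone F →
      (∀ x, F (b * ‖x‖) ≤ f x) → (∀ x, f x ≤ F (a * ‖x‖)) → ∀ (V : ℝ≥0),
      (∀ φ : EuclideanSpace ℝ (Fin d) → EuclideanSpace ℝ (Fin d), ContDiff ℝ 1 φ →
        HasCompactSupport φ → (∀ x, ‖φ x‖ ≤ 1) →
        ∫ x, (f x).toReal * ∑ i : Fin d, (fderiv ℝ φ x (EuclideanSpace.single i 1)) i ≤ V) →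
      (∀ x y : EuclideanSpace ℝ (Fin d), (∀ i, |x i| ≤ |y i|) → maxFun f y ≤ maxFun f x) ∧
      LocallyIntegrable (fun x => (maxFun f x).toReal) volume ∧
      (∀ h : EuclideanSpace ℝ (Fin d),
        ∫⁻ x, ((maxFun f x - maxFun f (x + h)) + (maxFun f (x + h) - maxFun f x)) ≤
          C * V * ENNReal.ofReal ‖h‖) ∧
      ∀ φ : EuclideanSpace ℝ (Fin d) → EuclideanSpace ℝ (Fin d), ContDiff ℝ 1 φ →
        HasCompactSupport φ → (∀ x, ‖φ x‖ ≤ 1) →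
        ∫ x, (maxFun f x).toReal *
            ∑ i : Fin d, (fderiv ℝ φ x (EuclideanSpace.single i 1)) i ≤ d * (C * V) := by
  have hω0 : volume (ball (0 : EuclideanSpace ℝ (Fin d)) 1) ≠ 0 :=
    (measure_ball_pos _ _ one_pos).ne'
  have hCfin : (d : ℝ≥0∞) * (2 ^ d * (volume (ball (0 : EuclideanSpace ℝ (Fin d)) 1))⁻¹ *
      ((2 ^ (d - 1) + d * 3 ^ d) * ENNReal.ofReal ((b / a) ^ (d - 1)))) ≠ ∞ := by
    refine ENNReal.mul_ne_top (by simp) (ENNReal.mul_ne_top (ENNReal.mul_ne_top (by simp)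
      (ENNReal.inv_ne_top.2 hω0)) (ENNReal.mul_ne_top ?_ ENNReal.ofReal_ne_top))
    exact ENNReal.add_ne_top.2 ⟨by simp, ENNReal.mul_ne_top (by simp) (by simp)⟩
  refine ⟨((d : ℝ≥0∞) * (2 ^ d * (volume (ball (0 : EuclideanSpace ℝ (Fin d)) 1))⁻¹ *
      ((2 ^ (d - 1) + d * 3 ^ d) * ENNReal.ofReal ((b / a) ^ (d - 1))))).toNNReal, ?_⟩
  intro f hf hBD hint F hF hlo hhi V hV
  have hK := quasi_radial_weighted hd f hf hint F hF a b ha hb hlo V hV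
  obtain ⟨hw, hdq⟩ := quasi_radial_dq hd f hf hBD F hF a ha hhi _ hK
  have hfin : ∫⁻ x, maxFun f x / ENNReal.ofReal ‖x‖ ≠ ∞ := by
    refine ne_top_of_le_ne_top ?_ hw
    refine ENNReal.mul_ne_top ?_ (ENNReal.mul_ne_top ENNReal.ofReal_ne_top (by simp))
    exact ENNReal.add_ne_top.2 ⟨by simp, ENNReal.mul_ne_top (by simp) (by simp)⟩
  have hu := locallyIntegrable_toReal_of_weighted _ (measurable_maxFun f hf) hfin
  have hdq' : ∀ h : EuclideanSpace ℝ (Fin d),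
      ∫⁻ x, ((maxFun f x - maxFun f (x + h)) + (maxFun f (x + h) - maxFun f x)) ≤
        (((d : ℝ≥0∞) * (2 ^ d * (volume (ball (0 : EuclideanSpace ℝ (Fin d)) 1))⁻¹ *
          ((2 ^ (d - 1) + d * 3 ^ d) * ENNReal.ofReal ((b / a) ^ (d - 1))))).toNNReal : ℝ≥0∞) *
            V * ENNReal.ofReal ‖h‖ := by
    intro h
    rw [ENNReal.coe_toNNReal hCfin]
    refine le_trans (hdq h) (le_of_eq ?_)
    ring
  refine ⟨fun x y hxy => maxFun_BD_n f hf hBD x y hxy, hu, hdq', fun φ hφ hφc hφ1 => ?_⟩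
  set C : ℝ≥0 := ((d : ℝ≥0∞) * (2 ^ d * (volume (ball (0 : EuclideanSpace ℝ (Fin d)) 1))⁻¹ *
      ((2 ^ (d - 1) + d * 3 ^ d) * ENNReal.ofReal ((b / a) ^ (d - 1))))).toNNReal with hC
  have h := integral_mul_div_le _ hu ((C * V : ℝ≥0) : ℝ) (NNReal.coe_nonneg _) (fun h => ?_)
    φ hφ hφc hφ1
  · refine le_trans h (le_of_eq ?_)
    push_cast; ring
  · calc ∫⁻ x, ENNReal.ofReal |(maxFun f (x + h)).toReal - (maxFun f x).toReal|
        ≤ ∫⁻ x, ((maxFun f x - maxFun f (x + h)) + (maxFun f (x + h) - maxFun f x)) := by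
          refine lintegral_mono fun x => ?_
          exact le_trans (ofReal_abs_toReal_sub_le _ _) (le_of_eq (add_comm _ _))
      _ ≤ (C : ℝ≥0∞) * V * ENNReal.ofReal ‖h‖ := hdq' h
      _ = ENNReal.ofReal (((C * V : ℝ≥0) : ℝ) * ‖h‖) := by
          rw [ENNReal.ofReal_mul (NNReal.coe_nonneg _), ENNReal.ofReal_coe_nnreal]
          push_cast; ring

end P137
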