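import Vale.Agent.Lib.P137.BDn.FinalN
import Vale.Agent.Lib.P137.Lip
import Vale.Agent.Lib.P137.C1DQ
import Vale.Agent.Lib.P137.FatouGrad

/-!
# P137 / BDn: the gradient bound of Q1 for `C¹` Lipschitz block-decreasing input between two
dilates of a radial profile, every dimension
-/

namespace P137

open MeasureTheory Metric Set
open scoped ENNReal NNReal

theorem quasi_radial_gradient {d : ℕ} (hd : 2 ≤ d) (a b : ℝ) (ha : 0 < a) (hb : 0 < b) :
    ∃ C : ℝ≥0, ∀ (f : EuclideanSpace ℝ (Fin d) → ℝ),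
      (∀ x y : EuclideanSpace ℝ (Fin d), (∀ i, |x i| ≤ |y i|) → f y ≤ f x) →
      ContDiff ℝ 1 f → ∀ (L : ℝ≥0), LipschitzWith L f → Integrable f volume →
      ∀ (F : ℝ → ℝ), Antitone F → (∀ x, F (b * ‖x‖) ≤ f x) → (∀ x, f x ≤ F (a * ‖x‖)) →
      (∀ x, maxFun (fun z => ENNReal.ofReal (f z)) x ≠ ∞) ∧
      LipschitzWith L (fun x => (maxFun (fun z => ENNReal.ofReal (f z)) x).toReal) ∧
      ∫⁻ x, ‖fderiv ℝ (fun x => (maxFun (fun z => ENNReal.ofReal (f z)) x).toReal) x‖ₑ ≤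
        C * ∫⁻ x, ‖fderiv ℝ f x‖ₑ := by
  obtain ⟨C, hC⟩ := quasi_radial_bv hd a b ha hb
  refine ⟨d * C * d + 1, ?_⟩
  intro f hBD hC1 L hL hint F hF hlo hhi
  have hg : ∀ x y : EuclideanSpace ℝ (Fin d), (∀ i, |x i| ≤ |y i|) →
      ENNReal.ofReal (f y) ≤ ENNReal.ofReal (f x) := fun x y hxy =>
    ENNReal.ofReal_le_ofReal (hBD x y hxy)
  have hgm : Measurable (fun z : EuclideanSpace ℝ (Fin d) => ENNReal.ofReal (f z)) :=
    ENNReal.measurable_ofReal.comp hC1.continuous.measurable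
  have hint' : ∫⁻ x : EuclideanSpace ℝ (Fin d), ENNReal.ofReal (f x) ≠ ∞ :=
    hint.lintegral_lt_top.ne
  have hfin : ∀ x, maxFun (fun z : EuclideanSpace ℝ (Fin d) => ENNReal.ofReal (f z)) x ≠ ∞ := by
    intro x
    refine ne_top_of_le_ne_top (ENNReal.ofReal_ne_top (r := f 0)) ?_
    refine maxFun_le_const _ _ (fun z => hg 0 z (fun i => ?_)) x
    simp
  have hLip := lipschitzWith_maxFun_toReal f L hL hfin
  refine ⟨hfin, hLip, ?_⟩
  by_cases hI : ∫⁻ x, ‖fderiv ℝ f x‖ₑ = ∞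
  · rw [hI, ENNReal.mul_top (by simp)]; exact le_top
  obtain ⟨I, hIdef⟩ : ∃ I : ℝ≥0∞, I = ∫⁻ x, ‖fderiv ℝ f x‖ₑ := ⟨_, rfl⟩
  rw [← hIdef] at hI ⊢
  have hu : LocallyIntegrable (fun x => (ENNReal.ofReal (f x)).toReal) volume := by
    have hmax : (fun x => (ENNReal.ofReal (f x)).toReal) = fun x => max (f x) 0 := by
      ext x; rw [ENNReal.toReal_ofReal']
    rw [hmax]
    exact (hC1.continuous.max continuous_const).locallyIntegrable
  have hVt : ∀ φ : EuclideanSpace ℝ (Fin d) → EuclideanSpace ℝ (Fin d), ContDiff ℝ 1 φ →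
      HasCompactSupport φ → (∀ x, ‖φ x‖ ≤ 1) →
      ∫ x, (ENNReal.ofReal (f x)).toReal *
        ∑ i : Fin d, (fderiv ℝ φ x (EuclideanSpace.single i 1)) i ≤
          ((d * I.toNNReal : ℝ≥0) : ℝ) := by
    intro φ hφ hφc hφ1
    have h := integral_mul_div_le _ hu (I.toReal) ENNReal.toReal_nonneg (fun h => ?_)
      φ hφ hφc hφ1
    · refine le_trans h (le_of_eq ?_)
      push_cast; rfl
    · calc ∫⁻ x, ENNReal.ofReal
            |(ENNReal.ofReal (f (x + h))).toReal - (ENNReal.ofReal (f x)).toReal|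
          ≤ ∫⁻ x, ENNReal.ofReal |f (x + h) - f x| := by
            refine lintegral_mono fun x => ?_
            refine le_trans (ofReal_abs_toReal_sub_le _ _) ?_
            exact le_trans (le_of_eq (add_comm _ _)) (ofReal_sub_add_le _ _)
        _ ≤ I * ENNReal.ofReal ‖h‖ := hIdef ▸ dq_of_contDiff f hC1 h
        _ = ENNReal.ofReal (I.toReal * ‖h‖) := by
            rw [ENNReal.ofReal_mul ENNReal.toReal_nonneg, ENNReal.ofReal_toReal hI]
  have hFa : Antitone (fun r => ENNReal.ofReal (F r)) := fun r s hrs =>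
    ENNReal.ofReal_le_ofReal (hF hrs)
  obtain ⟨-, -, hdq, -⟩ := hC (fun z => ENNReal.ofReal (f z)) hgm hg hint'
    (fun r => ENNReal.ofReal (F r)) hFa
    (fun x => ENNReal.ofReal_le_ofReal (hlo x)) (fun x => ENNReal.ofReal_le_ofReal (hhi x))
    (d * I.toNNReal) hVt
  have hdq' : ∀ h : EuclideanSpace ℝ (Fin d), ∫⁻ x, ENNReal.ofReal
      |(maxFun (fun z => ENNReal.ofReal (f z)) (x + h)).toReal -
        (maxFun (fun z => ENNReal.ofReal (f z)) x).toReal| ≤
      ((C : ℝ≥0∞) * ((d * I.toNNReal : ℝ≥0) : ℝ≥0∞)) * ENNReal.ofReal ‖h‖ := by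
    intro h
    refine le_trans (lintegral_mono fun x => ?_) (hdq h)
    exact le_trans (ofReal_abs_toReal_sub_le _ _) (le_of_eq (add_comm _ _))
  refine le_trans (lintegral_fderiv_le_of_dq _ hLip.continuous _ hdq') ?_
  have hIc : ((I.toNNReal : ℝ≥0) : ℝ≥0∞) = I := ENNReal.coe_toNNReal hI
  push_cast
  rw [hIc]
  calc (d : ℝ≥0∞) * (C * (d * I)) = (d * C * d) * I := by ring
    _ ≤ (d * C * d + 1) * I := mul_le_mul_left le_self_add _

end P137
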