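import Vale.Agent.Lib.P137.BD.Refl2

/-!
# P137 / BDn-G1: `ball_int_le_of_coord` in every dimension

Blueprint. Copy the finished proof of `ball_int_le_of_coord` in `Vale/Agent/Lib/P137/BD/Refl2.lean`, replacing `Fin 2` by `Fin d` (nothing in the argument uses `d = 2`; replace uses of `Fin.forall_fin_two` / `Fin.sum_univ_two` by general statements, e.g.
`EuclideanSpace.norm_sq_eq`, `Finset.sum` split at `i` with `Finset.add_sum_erase` or `Finset.sum_congr`).
-/

namespace P137

open MeasureTheory Metric Set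
open scoped ENNReal

theorem ball_int_le_of_coord_n {d : ℕ} (f : EuclideanSpace ℝ (Fin d) → ℝ≥0∞) (hf : Measurable f)
    (hBD : ∀ x y : EuclideanSpace ℝ (Fin d), (∀ i, |x i| ≤ |y i|) → f y ≤ f x)
    (x y : EuclideanSpace ℝ (Fin d)) (i : Fin d) (hne : ∀ j, j ≠ i → y j = x j)
    (hi : |x i| ≤ |y i|) (r : ℝ) :
    ∫⁻ z in ball y r, f z ≤ ∫⁻ z in ball x r, f z := by
  by_cases hxy : x = y
  · rw [hxy]
  set u : EuclideanSpace ℝ (Fin d) := y - x with hu
  have hu0 : u ≠ 0 := by
    rw [hu]; exact sub_ne_zero.2 (Ne.symm hxy)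
  have hun : 0 < ‖u‖ ^ 2 := by positivity
  set m : EuclideanSpace ℝ (Fin d) := (1 / 2 : ℝ) • (x + y) with hm
  have huj : ∀ j, j ≠ i → u j = 0 := by
    intro j hj
    rw [hu, PiLp.sub_apply, hne j hj, sub_self]
  have hui : u i = y i - x i := by rw [hu, PiLp.sub_apply]
  have hmi : m i = (1 / 2 : ℝ) * (x i + y i) := by
    rw [hm, PiLp.smul_apply, PiLp.add_apply, smul_eq_mul]
  have hinner : ∀ v : EuclideanSpace ℝ (Fin d), inner ℝ u v = u i * v i := by
    intro v
    rw [PiLp.inner_apply, Finset.sum_eq_single i]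
    · simp [mul_comm]
    · intro j _ hj
      rw [huj j hj]
      simp
    · intro h
      exact absurd (Finset.mem_univ i) h
  let R₀ : EuclideanSpace ℝ (Fin d) ≃ₗᵢ[ℝ] EuclideanSpace ℝ (Fin d) := (ℝ ∙ u)ᗮ.reflection
  have hR₀ : ∀ v, R₀ v = v - (2 * (inner ℝ u v / ‖u‖ ^ 2)) • u := by
    intro v
    simp only [R₀]
    rw [Submodule.reflection_orthogonal_apply, Submodule.reflection_singleton_apply]
    simp only [RCLike.ofReal_real_eq_id, id_eq, two_smul, neg_sub, two_mul, add_smul]
  have hR₀u : R₀ u = -u := Submodule.reflection_orthogonalComplement_singleton_eq_neg u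
  let R : EuclideanSpace ℝ (Fin d) → EuclideanSpace ℝ (Fin d) := fun z => m + R₀ (z - m)
  have hRmp : MeasurePreserving R volume volume :=
    (measurePreserving_add_left volume m).comp
      (R₀.measurePreserving.comp (measurePreserving_sub_right volume m))
  have hmy : y = m + (1 / 2 : ℝ) • u := by
    rw [hm, hu, ← smul_add]
    have : x + y + (y - x) = (2 : ℝ) • y := by rw [two_smul]; abel
    rw [this, smul_smul]; norm_num
  have hmx : x = m - (1 / 2 : ℝ) • u := by
    rw [hm, hu, ← smul_sub]
    have : x + y - (y - x) = (2 : ℝ) • x := by rw [two_smul]; abel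
    rw [this, smul_smul]; norm_num
  have hRx : ∀ z, ‖R z - x‖ = ‖z - y‖ := by
    intro z
    have : R z - x = R₀ (z - y) := by
      have h1 : z - y = (z - m) - (1 / 2 : ℝ) • u := by
        conv_lhs => rw [hmy]
        abel
      rw [h1, map_sub, map_smul, hR₀u]
      simp only [R]
      conv_lhs => rw [hmx]
      simp only [smul_neg]
      abel
    rw [this, LinearIsometryEquiv.norm_map]
  have hRy : ∀ z, ‖R z - y‖ = ‖z - x‖ := by
    intro z
    have : R z - y = R₀ (z - x) := by
      have h1 : z - x = (z - m) + (1 / 2 : ℝ) • u := by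
        conv_lhs => rw [hmx]
        abel
      rw [h1, map_add, map_smul, hR₀u]
      simp only [R]
      conv_lhs => rw [hmy]
      simp only [smul_neg]
      abel
    rw [this, LinearIsometryEquiv.norm_map]
  have hpre : R ⁻¹' (ball x r \ ball y r) = ball y r \ ball x r := by
    ext z
    simp only [mem_preimage, mem_sdiff, mem_ball, dist_eq_norm, hRx, hRy]
  -- the key pointwise inequality
  have hkey : ∀ z ∈ ball y r \ ball x r, ∀ j, |(R z) j| ≤ |z j| := by
    intro z hz
    simp only [mem_sdiff, mem_ball, dist_eq_norm, not_lt] at hz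
    have hzz : ‖z - y‖ ≤ ‖z - x‖ := le_trans hz.1.le hz.2
    have h2 : 2 * inner ℝ u (z - m) = ‖z - x‖ ^ 2 - ‖z - y‖ ^ 2 := by
      have e1 : z - x = (z - m) + (1 / 2 : ℝ) • u := by
        conv_lhs => rw [hmx]
        abel
      have e2 : z - y = (z - m) - (1 / 2 : ℝ) • u := by
        conv_lhs => rw [hmy]
        abel
      rw [e1, e2]
      exact refl_aux (z - m) u
    have h1' : 0 ≤ u i * m i := by
      have h3 : x i ^ 2 ≤ y i ^ 2 := sq_le_sq.2 hi
      rw [hui, hmi]
      nlinarith
    have h2' : 0 ≤ inner ℝ u (z - m) := by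
      have : ‖z - y‖ ^ 2 ≤ ‖z - x‖ ^ 2 := by gcongr
      linarith
    set t : ℝ := inner ℝ u (z - m) / ‖u‖ ^ 2 with ht
    have ht0 : 0 ≤ t := div_nonneg h2' hun.le
    have hRz : R z = z - (2 * t) • u := by
      simp only [R]
      rw [hR₀]
      abel
    have e4 : inner ℝ u (z - m) = t * ‖u‖ ^ 2 := by
      rw [ht]; field_simp
    have e5 : t * (u i * u i) = u i * (z i - m i) := by
      have h5 : ‖u‖ ^ 2 = u i * u i := by
        rw [← real_inner_self_eq_norm_sq, hinner]
      have h7 : (z - m) i = z i - m i := rfl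
      rw [← h5, ← e4, hinner, h7]
    intro j
    rw [hRz, PiLp.sub_apply, PiLp.smul_apply, smul_eq_mul]
    by_cases hj : j = i
    · rw [hj]
      apply sq_le_sq.1
      have h6 : (z i - 2 * t * u i) ^ 2 = z i ^ 2 - 4 * t * (u i * m i) := by
        linear_combination (4 * t) * e5
      rw [h6]
      have : 0 ≤ 4 * t * (u i * m i) := by positivity
      linarith
    · rw [huj j hj, mul_zero, sub_zero]
  have hdiff : ∫⁻ z in ball y r \ ball x r, f z ≤ ∫⁻ z in ball x r \ ball y r, f z := by
    calc ∫⁻ z in ball y r \ ball x r, f z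
        ≤ ∫⁻ z in ball y r \ ball x r, f (R z) :=
          setLIntegral_mono' (measurableSet_ball.diff measurableSet_ball)
            (fun z hz => hBD (R z) z (hkey z hz))
      _ = ∫⁻ z in R ⁻¹' (ball x r \ ball y r), f (R z) := by rw [hpre]
      _ = ∫⁻ z in ball x r \ ball y r, f z :=
          hRmp.setLIntegral_comp_preimage (measurableSet_ball.diff measurableSet_ball) hf
  rw [← lintegral_inter_add_sdiff (fun z => f z) (ball y r) (measurableSet_ball (x := x) (ε := r)),
    ← lintegral_inter_add_sdiff (fun z => f z) (ball x r) (measurableSet_ball (x := y) (ε := r)),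
    inter_comm (ball y r) (ball x r)]
  gcongr

end P137
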