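import Mathlib

/-!
# P137 / BDn-G6a: the volume of a ball intersected with a slab

Blueprint. The set is contained in the box `{x | ∀ j, |x j| ≤ (if j = i then s else R)}` (`|x j| ≤ ‖x‖`: `PiLp.norm_apply_le`). Transfer to `Fin d → ℝ` (`EuclideanSpace.volume_preserving_measurableEquiv`, `MeasurePreserving.measure_preimage`), where the box is `Set.pi univ (fun j => Icc (-c j) (c j))`, of volume
`∏ j, ofReal (2 * c j)` (`Real.volume_pi_Icc` / `volume_pi_pi`, `Real.volume_Icc`); split the product at `i` (`Finset.prod_ite_eq`-type lemma, `Finset.mul_prod_erase`, `Finset.prod_const`, `Finset.card_erase_of_mem`).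
-/

namespace P137

open MeasureTheory Metric Set
open scoped ENNReal

theorem vol_ball_slab_le {d : ℕ} (i : Fin d) (R s : ℝ) (hR : 0 ≤ R) (hs : 0 ≤ s) :
    volume (closedBall (0 : EuclideanSpace ℝ (Fin d)) R ∩ {x | |x i| ≤ s}) ≤
      ENNReal.ofReal (2 * s) * ENNReal.ofReal ((2 * R) ^ (d - 1)) := by
  classical
  set c : Fin d → ℝ := fun j => if j = i then s else R with hc
  set B : Set (Fin d → ℝ) := Set.pi univ (fun j => Icc (-c j) (c j)) with hB
  have hBm : MeasurableSet B := MeasurableSet.univ_pi (fun j => measurableSet_Icc)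
  have hsub : closedBall (0 : EuclideanSpace ℝ (Fin d)) R ∩ {x | |x i| ≤ s} ⊆
      (@WithLp.ofLp 2 (Fin d → ℝ)) ⁻¹' B := by
    intro x hx
    obtain ⟨hx1, hx2⟩ := hx
    rw [mem_closedBall, dist_zero_right] at hx1
    simp only [mem_setOf_eq] at hx2
    rw [mem_preimage, hB, Set.mem_univ_pi]
    intro j
    rw [mem_Icc, ← abs_le]
    by_cases hj : j = i
    · subst hj
      simpa [hc] using hx2
    · have h1 : ‖x j‖ ≤ ‖x‖ := PiLp.norm_apply_le x j
      rw [Real.norm_eq_abs] at h1
      simpa [hc, hj] using h1.trans hx1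
  have hvol : volume ((@WithLp.ofLp 2 (Fin d → ℝ)) ⁻¹' B) = volume B :=
    (PiLp.volume_preserving_ofLp (Fin d)).measure_preimage hBm.nullMeasurableSet
  have hprod : volume B = ∏ j, ENNReal.ofReal (2 * c j) := by
    rw [hB, volume_pi_pi]
    refine Finset.prod_congr rfl (fun j _ => ?_)
    rw [Real.volume_Icc]
    congr 1
    ring
  have hsplit : ∏ j, ENNReal.ofReal (2 * c j) =
      ENNReal.ofReal (2 * s) * ENNReal.ofReal ((2 * R) ^ (d - 1)) := by
    rw [← Finset.mul_prod_erase Finset.univ _ (Finset.mem_univ i)]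
    have h1 : c i = s := by simp [hc]
    rw [h1]
    congr 1
    have h2 : ∀ j ∈ Finset.univ.erase i, ENNReal.ofReal (2 * c j) = ENNReal.ofReal (2 * R) := by
      intro j hj
      have : j ≠ i := Finset.ne_of_mem_erase hj
      simp [hc, this]
    rw [Finset.prod_congr rfl h2, Finset.prod_const, Finset.card_erase_of_mem (Finset.mem_univ i),
      Finset.card_univ, Fintype.card_fin, ENNReal.ofReal_pow (by positivity)]
  calc volume (closedBall (0 : EuclideanSpace ℝ (Fin d)) R ∩ {x | |x i| ≤ s})
      ≤ volume ((@WithLp.ofLp 2 (Fin d → ℝ)) ⁻¹' B) := measure_mono hsub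
    _ = ENNReal.ofReal (2 * s) * ENNReal.ofReal ((2 * R) ^ (d - 1)) := by
        rw [hvol, hprod, hsplit]

end P137
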