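import Mathlib

/-!
# P137 / BDn-G3: Fubini in one coordinate of `ℝ^(n+1)`

Blueprint. `EuclideanSpace.volume_preserving_measurableEquiv (Fin (n + 1))` (or `PiLp.volume_preserving_ofLp`) transfers to `Fin (n + 1) → ℝ`; `MeasureTheory.volume_preserving_piFinSuccAbove (fun _ => ℝ) i` transfers to `ℝ × (Fin n → ℝ)` (the inverse map is
`(s, z) ↦ Fin.insertNth i s z`); then `lintegral_prod` / `lintegral_prod_symm` (`volume_eq_prod`). Compare the finished `Vale/Agent/Lib/P137/BD/Transfer.lean`.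
-/

namespace P137

open MeasureTheory Metric Set
open scoped ENNReal

theorem measurePreserving_insertNth_aux {n : ℕ} (i : Fin (n + 1)) :
    MeasurePreserving (fun p : ℝ × (Fin n → ℝ) =>
      (WithLp.toLp 2 (Fin.insertNth i p.1 p.2 : Fin (n + 1) → ℝ) :
        EuclideanSpace ℝ (Fin (n + 1)))) volume volume := by
  have h1 := PiLp.volume_preserving_toLp (Fin (n + 1))
  have h2 := (MeasureTheory.volume_preserving_piFinSuccAbove (fun _ : Fin (n + 1) => ℝ) i).symm
  have h3 := h1.comp h2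
  have e : (fun p : ℝ × (Fin n → ℝ) =>
      (WithLp.toLp 2 (Fin.insertNth i p.1 p.2 : Fin (n + 1) → ℝ) :
        EuclideanSpace ℝ (Fin (n + 1))))
      = ((WithLp.toLp 2 : (Fin (n + 1) → ℝ) → EuclideanSpace ℝ (Fin (n + 1))) ∘
          ⇑(MeasurableEquiv.piFinSuccAbove (fun _ : Fin (n + 1) => ℝ) i).symm) := by
    funext p
    rfl
  rw [e]
  exact h3

theorem measurable_insertNth_pt {n : ℕ} (i : Fin (n + 1)) :
    Measurable (fun p : (Fin n → ℝ) × ℝ =>
      (WithLp.toLp 2 (Fin.insertNth i p.2 p.1 : Fin (n + 1) → ℝ) :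
        EuclideanSpace ℝ (Fin (n + 1)))) :=
  (measurePreserving_insertNth_aux i).measurable.comp measurable_swap

theorem lintegral_insertNth {n : ℕ} (i : Fin (n + 1))
    (G : EuclideanSpace ℝ (Fin (n + 1)) → ℝ≥0∞) (hG : Measurable G) :
    ∫⁻ x, G x = ∫⁻ z : Fin n → ℝ, ∫⁻ s : ℝ,
      G (WithLp.toLp 2 (Fin.insertNth i s z : Fin (n + 1) → ℝ)) := by
  rw [← (measurePreserving_insertNth_aux i).lintegral_comp hG, Measure.volume_eq_prod]
  exact lintegral_prod_symm _ (hG.comp (measurePreserving_insertNth_aux i).measurable).aemeasurable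

end P137
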